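import Vale.Agent.Lib.P245.Basic

/-!
# Prekopa-Leindler with general weights, for functions valued in `ℝ≥0∞`.
-/

open MeasureTheory Set
open scoped ENNReal NNReal

namespace Vale.Agent.Lib.P245

lemma volume_scaled_gen (A : Set ℝ) {c : ℝ} (hc : 0 < c) (d : ℝ) :
    volume {y : ℝ | (y - d) / c ∈ A} = ENNReal.ofReal c * volume A := by
  have h1 : {y : ℝ | (y - d) / c ∈ A} =
      (fun y : ℝ => y + (-d)) ⁻¹' ((fun z : ℝ => c⁻¹ * z) ⁻¹' A) := by
    ext y
    simp only [mem_ofPred_eq, mem_preimage]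
    rw [div_eq_inv_mul, sub_eq_add_neg]
  rw [h1, measure_preimage_add_right, Real.volume_preimage_mul_left (inv_ne_zero hc.ne'),
    inv_inv, abs_of_pos hc]

/-- One dimensional Brunn-Minkowski with weights, for compact sets. -/
lemma bm_compact {t : ℝ} (ht0 : 0 < t) (ht1 : t < 1) {A B C : Set ℝ} (hA : IsCompact A)
    (hB : IsCompact B) (hA' : A.Nonempty) (hB' : B.Nonempty)
    (hC : ∀ a ∈ A, ∀ b ∈ B, (1 - t) * a + t * b ∈ C) :
    ENNReal.ofReal (1 - t) * volume A + ENNReal.ofReal t * volume B ≤ volume C := by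
  have h1t : 0 < 1 - t := by linarith
  obtain ⟨a, haA, ha⟩ := hA.exists_isGreatest hA'
  obtain ⟨b, hbB, hb⟩ := hB.exists_isLeast hB'
  set S : Set ℝ := {y : ℝ | (y - t * b) / (1 - t) ∈ A} with hS
  set U : Set ℝ := {y : ℝ | (y - (1 - t) * a) / t ∈ B} with hU
  set m : ℝ := (1 - t) * a + t * b with hm
  have hSm : ∀ y ∈ S, y ≤ m := by
    intro y hy
    have h2 := ha hy
    rw [div_le_iff₀ h1t] at h2
    rw [hm]
    linarith
  have hUm : ∀ y ∈ U, m ≤ y := by
    intro y hy
    have h2 := hb hy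
    rw [le_div_iff₀ ht0] at h2
    rw [hm]
    linarith
  have hSC : S ⊆ C := by
    intro y hy
    have h2 := hC _ hy b hbB
    have e : (1 - t) * ((y - t * b) / (1 - t)) + t * b = y := by
      field_simp
      ring
    rwa [e] at h2
  have hUC : U ⊆ C := by
    intro y hy
    have h2 := hC a haA _ hy
    have e : (1 - t) * a + t * ((y - (1 - t) * a) / t) = y := by
      field_simp
      ring
    rwa [e] at h2
  have hSmeas : MeasurableSet S :=
    hA.isClosed.measurableSet.preimage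
      (by fun_prop : Measurable fun y : ℝ => (y - t * b) / (1 - t))
  have hUmeas : MeasurableSet U :=
    hB.isClosed.measurableSet.preimage
      (by fun_prop : Measurable fun y : ℝ => (y - (1 - t) * a) / t)
  have hdisj : Disjoint S (U \ {m}) := by
    rw [Set.disjoint_left]
    rintro y hyS ⟨hyU, hne⟩
    exact hne (le_antisymm (hSm y hyS) (hUm y hyU))
  have hU' : volume (U \ {m}) = volume U := measure_sdiff_null (by simp)
  have hunion : volume S + volume U ≤ volume C := by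
    rw [← hU', ← measure_union hdisj (hUmeas.diff (measurableSet_singleton m))]
    apply measure_mono
    exact union_subset hSC (sdiff_subset.trans hUC)
  calc ENNReal.ofReal (1 - t) * volume A + ENNReal.ofReal t * volume B
      = volume S + volume U := by
        rw [hS, hU, volume_scaled_gen A h1t, volume_scaled_gen B ht0]
    _ ≤ volume C := hunion

/-- One dimensional Brunn-Minkowski with weights, for measurable sets. -/
lemma bm_measurable {t : ℝ} (ht0 : 0 < t) (ht1 : t < 1) {A B C : Set ℝ} (hA : MeasurableSet A)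
    (hB : MeasurableSet B) (hA' : A.Nonempty) (hB' : B.Nonempty)
    (hC : ∀ a ∈ A, ∀ b ∈ B, (1 - t) * a + t * b ∈ C) :
    ENNReal.ofReal (1 - t) * volume A + ENNReal.ofReal t * volume B ≤ volume C := by
  have h1t : 0 < 1 - t := by linarith
  obtain ⟨a0, ha0⟩ := hA'
  obtain ⟨b0, hb0⟩ := hB'
  have key : ∀ K, K ⊆ A → IsCompact K → ∀ K', K' ⊆ B → IsCompact K' →
      ENNReal.ofReal (1 - t) * volume K + ENNReal.ofReal t * volume K' ≤ volume C := by
    intro K hK hKc K' hK' hKc'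
    have h := bm_compact ht0 ht1 (A := K ∪ {a0}) (B := K' ∪ {b0}) (C := C)
      (hKc.union isCompact_singleton) (hKc'.union isCompact_singleton)
      ⟨a0, by simp⟩ ⟨b0, by simp⟩
      (fun a ha b hb => hC a (union_subset hK (by simpa using ha0) ha) b
        (union_subset hK' (by simpa using hb0) hb))
    refine le_trans ?_ h
    gcongr
    · exact subset_union_left
    · exact subset_union_left
  -- approximate each set from inside by compact sets
  have happ : ∀ {w : ℝ} {D : Set ℝ}, 0 < w → MeasurableSet D → ∀ y, y < ENNReal.ofReal w * volume D →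
      ∃ K, K ⊆ D ∧ IsCompact K ∧ y < ENNReal.ofReal w * volume K := by
    intro w D hw hD y hy
    have hw0 : ENNReal.ofReal w ≠ 0 := (ENNReal.ofReal_pos.2 hw).ne'
    have hwt : ENNReal.ofReal w ≠ ⊤ := ENNReal.ofReal_ne_top
    have h1 : y / ENNReal.ofReal w < volume D := by
      rw [ENNReal.div_lt_iff (Or.inl hw0) (Or.inl hwt), mul_comm]
      exact hy
    obtain ⟨K, hK, hKc, hlt⟩ := hD.exists_lt_isCompact h1
    refine ⟨K, hK, hKc, ?_⟩
    rw [ENNReal.div_lt_iff (Or.inl hw0) (Or.inl hwt), mul_comm] at hlt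
    exact hlt
  by_contra hcon
  push Not at hcon
  by_cases h0 : ENNReal.ofReal (1 - t) * volume A = 0
  · rw [h0, zero_add] at hcon
    obtain ⟨K', hK', hKc', hlt⟩ := happ ht0 hB _ hcon
    have := key ∅ (empty_subset _) isCompact_empty K' hK' hKc'
    simp only [measure_empty, mul_zero, zero_add] at this
    exact absurd (lt_of_lt_of_le hlt this) (lt_irrefl _)
  by_cases h1 : ENNReal.ofReal t * volume B = 0
  · rw [h1, add_zero] at hcon
    obtain ⟨K, hK, hKc, hlt⟩ := happ h1t hA _ hcon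
    have := key K hK hKc ∅ (empty_subset _) isCompact_empty
    simp only [measure_empty, mul_zero, add_zero] at this
    exact absurd (lt_of_lt_of_le hlt this) (lt_irrefl _)
  obtain ⟨u, hu, v, hv, huv⟩ := ENNReal.exists_lt_add_of_lt_add hcon h0 h1
  obtain ⟨K, hK, hKc, hlt⟩ := happ h1t hA _ hu
  obtain ⟨K', hK', hKc', hlt'⟩ := happ ht0 hB _ hv
  have h2 := key K hK hKc K' hK' hKc'
  have h3 : u + v ≤ ENNReal.ofReal (1 - t) * volume K + ENNReal.ofReal t * volume K' :=
    add_le_add hlt.le hlt'.le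
  exact absurd (lt_of_lt_of_le huv (h3.trans h2)) (lt_irrefl _)

/-- Normalized one dimensional inequality. -/
lemma pl_normalized_gen {t : ℝ} (ht0 : 0 < t) (ht1 : t < 1) {f g h : ℝ → ℝ≥0∞}
    (hf : Measurable f) (hg : Measurable g) (hh : Measurable h) (hf1 : ∀ x, f x ≤ 1)
    (hg1 : ∀ x, g x ≤ 1) (hfs : ∀ s < 1, ∃ x, s < f x) (hgs : ∀ s < 1, ∃ y, s < g y)
    (H : ∀ x y, min (f x) (g y) ≤ h ((1 - t) * x + t * y)) :
    ENNReal.ofReal (1 - t) * (∫⁻ x, f x) + ENNReal.ofReal t * ∫⁻ x, g x ≤ ∫⁻ x, h x := by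
  set φ : ℝ → ℝ := fun x => (f x).toReal with hφ
  set ψ : ℝ → ℝ := fun x => (g x).toReal with hψ
  set χ : ℝ → ℝ := fun x => (min (h x) 1).toReal with hχ
  have hfT : ∀ x, f x ≠ ⊤ := fun x => ne_top_of_le_ne_top ENNReal.one_ne_top (hf1 x)
  have hgT : ∀ x, g x ≠ ⊤ := fun x => ne_top_of_le_ne_top ENNReal.one_ne_top (hg1 x)
  have hhT : ∀ x, min (h x) 1 ≠ ⊤ :=
    fun x => ne_top_of_le_ne_top ENNReal.one_ne_top (min_le_right _ _)
  have hφm : Measurable φ := hf.ennreal_toReal
  have hψm : Measurable ψ := hg.ennreal_toReal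
  have hχm : Measurable χ := (hh.min measurable_const).ennreal_toReal
  have hφ0 : ∀ x, 0 ≤ φ x := fun x => ENNReal.toReal_nonneg
  have hψ0 : ∀ x, 0 ≤ ψ x := fun x => ENNReal.toReal_nonneg
  have hχ0 : ∀ x, 0 ≤ χ x := fun x => ENNReal.toReal_nonneg
  have e1 : ∫⁻ x, f x = ∫⁻ s in Ioi (0 : ℝ), volume {a | s < φ a} := by
    rw [← lintegral_eq_lintegral_meas_lt volume (Filter.Eventually.of_forall hφ0)
      hφm.aemeasurable]
    refine lintegral_congr fun x => ?_
    simp [hφ, ENNReal.ofReal_toReal (hfT x)]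
  have e2 : ∫⁻ x, g x = ∫⁻ s in Ioi (0 : ℝ), volume {a | s < ψ a} := by
    rw [← lintegral_eq_lintegral_meas_lt volume (Filter.Eventually.of_forall hψ0)
      hψm.aemeasurable]
    refine lintegral_congr fun x => ?_
    simp [hψ, ENNReal.ofReal_toReal (hgT x)]
  have e3 : ∫⁻ s in Ioi (0 : ℝ), volume {a | s < χ a} ≤ ∫⁻ x, h x := by
    rw [← lintegral_eq_lintegral_meas_lt volume (Filter.Eventually.of_forall hχ0)
      hχm.aemeasurable]
    refine lintegral_mono fun x => ?_
    simp only [hχ, ENNReal.ofReal_toReal (hhT x)]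
    exact min_le_left _ _
  have hanti : ∀ u : ℝ → ℝ, Measurable fun s : ℝ => volume {a | s < u a} := by
    intro u
    apply Antitone.measurable
    intro s r hsr
    apply measure_mono
    intro a ha
    exact lt_of_le_of_lt hsr ha
  have hlevel : ∀ s ∈ Ioi (0 : ℝ),
      ENNReal.ofReal (1 - t) * volume {a | s < φ a} + ENNReal.ofReal t * volume {a | s < ψ a} ≤
        volume {a | s < χ a} := by
    intro s hs
    have hs0 : (0 : ℝ) < s := hs
    by_cases hs1 : 1 ≤ s
    · have h1 : {a | s < φ a} = ∅ := by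
        ext a
        simp only [mem_ofPred_eq, mem_empty_iff_false, iff_false, not_lt]
        have : φ a ≤ 1 := by
          have := ENNReal.toReal_mono ENNReal.one_ne_top (hf1 a)
          simpa using this
        linarith
      have h2 : {a | s < ψ a} = ∅ := by
        ext a
        simp only [mem_ofPred_eq, mem_empty_iff_false, iff_false, not_lt]
        have : ψ a ≤ 1 := by
          have := ENNReal.toReal_mono ENNReal.one_ne_top (hg1 a)
          simpa using this
        linarith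
      simp [h1, h2]
    · push Not at hs1
      have hsE : ENNReal.ofReal s < 1 := by
        rw [← ENNReal.ofReal_one]
        exact (ENNReal.ofReal_lt_ofReal_iff one_pos).2 hs1
      obtain ⟨x0, hx0⟩ := hfs _ hsE
      obtain ⟨y0, hy0⟩ := hgs _ hsE
      apply bm_measurable ht0 ht1 (measurableSet_lt measurable_const hφm)
        (measurableSet_lt measurable_const hψm)
      · exact ⟨x0, (ENNReal.ofReal_lt_iff_lt_toReal hs0.le (hfT x0)).1 hx0⟩
      · exact ⟨y0, (ENNReal.ofReal_lt_iff_lt_toReal hs0.le (hgT y0)).1 hy0⟩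
      · intro a ha b hb
        have ha' : ENNReal.ofReal s < f a :=
          (ENNReal.ofReal_lt_iff_lt_toReal hs0.le (hfT a)).2 ha
        have hb' : ENNReal.ofReal s < g b :=
          (ENNReal.ofReal_lt_iff_lt_toReal hs0.le (hgT b)).2 hb
        have h3 : ENNReal.ofReal s < h ((1 - t) * a + t * b) :=
          lt_of_lt_of_le (lt_min ha' hb') (H a b)
        have h4 : ENNReal.ofReal s < min (h ((1 - t) * a + t * b)) 1 := lt_min h3 hsE
        exact (ENNReal.ofReal_lt_iff_lt_toReal hs0.le (hhT _)).1 h4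
  calc ENNReal.ofReal (1 - t) * (∫⁻ x, f x) + ENNReal.ofReal t * ∫⁻ x, g x
      = ∫⁻ s in Ioi (0 : ℝ), (ENNReal.ofReal (1 - t) * volume {a | s < φ a} +
          ENNReal.ofReal t * volume {a | s < ψ a}) := by
        rw [e1, e2, lintegral_add_left ((hanti φ).const_mul _),
          lintegral_const_mul _ (hanti φ), lintegral_const_mul _ (hanti ψ)]
    _ ≤ ∫⁻ s in Ioi (0 : ℝ), volume {a | s < χ a} :=
        setLIntegral_mono' measurableSet_Ioi hlevel
    _ ≤ ∫⁻ x, h x := e3

/-- `min a b ≤ a ^ (1 - t) * b ^ t`. -/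
lemma min_le_rpow_mul {t : ℝ} (ht0 : 0 < t) (ht1 : t < 1) (a b : ℝ≥0∞) :
    min a b ≤ a ^ (1 - t) * b ^ t := by
  have h1t : 0 < 1 - t := by linarith
  rcases le_total a b with hab | hab
  · rw [min_eq_left hab]
    calc a = a ^ (1 - t) * a ^ t := by
          rcases eq_or_ne a 0 with h0 | h0
          · simp [h0, h1t, ht0]
          rcases eq_or_ne a ⊤ with h1 | h1
          · simp [h1, h1t, ht0]
          rw [← ENNReal.rpow_add _ _ h0 h1]
          simp
      _ ≤ a ^ (1 - t) * b ^ t := by gcongr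
  · rw [min_eq_right hab]
    calc b = b ^ (1 - t) * b ^ t := by
          rcases eq_or_ne b 0 with h0 | h0
          · simp [h0, h1t, ht0]
          rcases eq_or_ne b ⊤ with h1 | h1
          · simp [h1, h1t, ht0]
          rw [← ENNReal.rpow_add _ _ h0 h1]
          simp
      _ ≤ a ^ (1 - t) * b ^ t := by gcongr

/-- Weighted arithmetic and geometric means in `ℝ≥0∞`. -/
lemma enn_amgm {t : ℝ} (ht0 : 0 < t) (ht1 : t < 1) (x y : ℝ≥0∞) :
    x ^ (1 - t) * y ^ t ≤ ENNReal.ofReal (1 - t) * x + ENNReal.ofReal t * y := by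
  have h1t : 0 < 1 - t := by linarith
  by_cases hx : x = ⊤
  · subst hx
    rw [ENNReal.mul_top (ENNReal.ofReal_pos.2 h1t).ne']
    simp
  by_cases hy : y = ⊤
  · subst hy
    rw [ENNReal.mul_top (ENNReal.ofReal_pos.2 ht0).ne']
    simp
  have h := Real.geom_mean_le_arith_mean2_weighted h1t.le ht0.le (ENNReal.toReal_nonneg (a := x))
    (ENNReal.toReal_nonneg (a := y)) (by ring)
  have e1 : x = ENNReal.ofReal x.toReal := (ENNReal.ofReal_toReal hx).symm
  have e2 : y = ENNReal.ofReal y.toReal := (ENNReal.ofReal_toReal hy).symm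
  rw [e1, e2, ENNReal.ofReal_rpow_of_nonneg ENNReal.toReal_nonneg h1t.le,
    ENNReal.ofReal_rpow_of_nonneg ENNReal.toReal_nonneg ht0.le,
    ← ENNReal.ofReal_mul (by positivity), ← ENNReal.ofReal_mul h1t.le, ← ENNReal.ofReal_mul ht0.le,
    ← ENNReal.ofReal_add (by positivity) (by positivity)]
  apply ENNReal.ofReal_le_ofReal
  simpa using h

/-- One dimensional Prekopa-Leindler with weights for bounded `f`, `g`. -/
lemma pl_bounded_gen {t : ℝ} (ht0 : 0 < t) (ht1 : t < 1) {f g h : ℝ → ℝ≥0∞} (hf : Measurable f)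
    (hg : Measurable g) (hh : Measurable h) (hfb : (⨆ x, f x) ≠ ⊤) (hgb : (⨆ x, g x) ≠ ⊤)
    (H : ∀ x y, f x ^ (1 - t) * g y ^ t ≤ h ((1 - t) * x + t * y)) :
    (∫⁻ x, f x) ^ (1 - t) * (∫⁻ x, g x) ^ t ≤ ∫⁻ x, h x := by
  have h1t : 0 < 1 - t := by linarith
  set F := ⨆ x, f x with hF
  set G := ⨆ x, g x with hG
  by_cases hF0 : F = 0
  · have : ∀ x, f x = 0 := fun x => by
      have := le_iSup f x
      rw [← hF, hF0] at this
      simpa using this
    simp [this, h1t]
  by_cases hG0 : G = 0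
  · have : ∀ x, g x = 0 := fun x => by
      have := le_iSup g x
      rw [← hG, hG0] at this
      simpa using this
    simp [this, ht0]
  set s := F ^ (1 - t) * G ^ t with hs
  have hs0 : s ≠ 0 := by
    rw [hs]
    apply mul_ne_zero
    · exact (ENNReal.rpow_pos (pos_iff_ne_zero.2 hF0) hfb).ne'
    · exact (ENNReal.rpow_pos (pos_iff_ne_zero.2 hG0) hgb).ne'
  have hsT : s ≠ ⊤ := by
    rw [hs]
    exact ENNReal.mul_ne_top (ENNReal.rpow_ne_top_of_nonneg h1t.le hfb)
      (ENNReal.rpow_ne_top_of_nonneg ht0.le hgb)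
  have hFi : F⁻¹ ≠ ⊤ := ENNReal.inv_ne_top.2 hF0
  have hGi : G⁻¹ ≠ ⊤ := ENNReal.inv_ne_top.2 hG0
  have hFi0 : F⁻¹ ≠ 0 := ENNReal.inv_ne_zero.2 hfb
  have hGi0 : G⁻¹ ≠ 0 := ENNReal.inv_ne_zero.2 hgb
  have hsinv : s⁻¹ = (F⁻¹) ^ (1 - t) * (G⁻¹) ^ t := by
    rw [hs, ENNReal.mul_inv (Or.inl (ENNReal.rpow_pos (pos_iff_ne_zero.2 hF0) hfb).ne')
      (Or.inl (ENNReal.rpow_ne_top_of_nonneg h1t.le hfb)), ENNReal.inv_rpow, ENNReal.inv_rpow]
  have hfle : ∀ x, f x ≤ F := fun x => le_iSup f x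
  have hgle : ∀ x, g x ≤ G := fun x => le_iSup g x
  have hn := pl_normalized_gen ht0 ht1 (f := fun x => f x * F⁻¹) (g := fun x => g x * G⁻¹)
    (h := fun x => h x * s⁻¹) (hf.mul_const _) (hg.mul_const _) (hh.mul_const _)
    (fun x => by
      calc f x * F⁻¹ ≤ F * F⁻¹ := by gcongr; exact hfle x
        _ = 1 := ENNReal.mul_inv_cancel hF0 hfb)
    (fun x => by
      calc g x * G⁻¹ ≤ G * G⁻¹ := by gcongr; exact hgle x
        _ = 1 := ENNReal.mul_inv_cancel hG0 hgb)
    (fun r hr => by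
      have h1 : r * F < F := by
        calc r * F < 1 * F := by
              exact (ENNReal.mul_lt_mul_iff_left hF0 hfb).2 hr
          _ = F := one_mul F
      obtain ⟨x, hx⟩ := lt_iSup_iff.1 h1
      refine ⟨x, ?_⟩
      have h2 : r * F * F⁻¹ < f x * F⁻¹ :=
        (ENNReal.mul_lt_mul_iff_left hFi0 hFi).2 hx
      rwa [mul_assoc, ENNReal.mul_inv_cancel hF0 hfb, mul_one] at h2)
    (fun r hr => by
      have h1 : r * G < G := by
        calc r * G < 1 * G := by
              exact (ENNReal.mul_lt_mul_iff_left hG0 hgb).2 hr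
          _ = G := one_mul G
      obtain ⟨x, hx⟩ := lt_iSup_iff.1 h1
      refine ⟨x, ?_⟩
      have h2 : r * G * G⁻¹ < g x * G⁻¹ :=
        (ENNReal.mul_lt_mul_iff_left hGi0 hGi).2 hx
      rwa [mul_assoc, ENNReal.mul_inv_cancel hG0 hgb, mul_one] at h2)
    (fun x y => by
      refine (min_le_rpow_mul ht0 ht1 _ _).trans ?_
      rw [ENNReal.mul_rpow_of_nonneg _ _ h1t.le, ENNReal.mul_rpow_of_nonneg _ _ ht0.le, hsinv]
      calc f x ^ (1 - t) * F⁻¹ ^ (1 - t) * (g y ^ t * G⁻¹ ^ t)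
          = (f x ^ (1 - t) * g y ^ t) * (F⁻¹ ^ (1 - t) * G⁻¹ ^ t) := by ring
        _ ≤ h ((1 - t) * x + t * y) * (F⁻¹ ^ (1 - t) * G⁻¹ ^ t) := by gcongr; exact H x y)
  rw [lintegral_mul_const _ hf, lintegral_mul_const _ hg, lintegral_mul_const _ hh] at hn
  set a := ∫⁻ x, f x with ha
  set b := ∫⁻ x, g x with hb
  set c := ∫⁻ x, h x with hc
  have hamgm := enn_amgm ht0 ht1 (a * F⁻¹) (b * G⁻¹)
  have h4 : (a ^ (1 - t) * b ^ t) * s⁻¹ ≤ c * s⁻¹ := by
    refine le_trans (le_of_eq ?_) (hamgm.trans hn)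
    rw [ENNReal.mul_rpow_of_nonneg _ _ h1t.le, ENNReal.mul_rpow_of_nonneg _ _ ht0.le, hsinv]
    ring
  exact (ENNReal.mul_le_mul_iff_left (ENNReal.inv_ne_zero.2 hsT) (ENNReal.inv_ne_top.2 hs0)).1 h4

/-- One dimensional Prekopa-Leindler with weights. -/
lemma pl_one_gen {t : ℝ} (ht0 : 0 < t) (ht1 : t < 1) {f g h : ℝ → ℝ≥0∞} (hf : Measurable f)
    (hg : Measurable g) (hh : Measurable h)
    (H : ∀ x y, f x ^ (1 - t) * g y ^ t ≤ h ((1 - t) * x + t * y)) :
    (∫⁻ x, f x) ^ (1 - t) * (∫⁻ x, g x) ^ t ≤ ∫⁻ x, h x := by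
  have h1t : 0 < 1 - t := by linarith
  have hfN : ∀ x, f x = ⨆ N : ℕ, min (f x) (N : ℝ≥0∞) := fun x => by
    have := inf_iSup_eq (f x) (fun N : ℕ => (N : ℝ≥0∞))
    simpa [ENNReal.iSup_natCast] using this
  have hgN : ∀ x, g x = ⨆ N : ℕ, min (g x) (N : ℝ≥0∞) := fun x => by
    have := inf_iSup_eq (g x) (fun N : ℕ => (N : ℝ≥0∞))
    simpa [ENNReal.iSup_natCast] using this
  have hmono : ∀ (u : ℝ → ℝ≥0∞), Monotone fun (N : ℕ) (x : ℝ) => min (u x) (N : ℝ≥0∞) := by
    intro u N M hNM x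
    exact min_le_min le_rfl (by exact_mod_cast hNM)
  have e1 : ∫⁻ x, f x = ⨆ N : ℕ, ∫⁻ x, min (f x) (N : ℝ≥0∞) := by
    rw [← lintegral_iSup (fun N => hf.min measurable_const) (hmono f)]
    exact lintegral_congr hfN
  have e2 : ∫⁻ x, g x = ⨆ N : ℕ, ∫⁻ x, min (g x) (N : ℝ≥0∞) := by
    rw [← lintegral_iSup (fun N => hg.min measurable_const) (hmono g)]
    exact lintegral_congr hgN
  have e3 : ∀ (w : ℕ → ℝ≥0∞) {p : ℝ}, 0 < p → (⨆ N, w N) ^ p = ⨆ N, w N ^ p := by
    intro w p hp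
    exact (ENNReal.orderIsoRpow p hp).map_iSup w
  rw [e1, e2, e3 _ h1t, e3 _ ht0, ENNReal.iSup_mul]
  refine iSup_le fun N => ?_
  rw [ENNReal.mul_iSup]
  refine iSup_le fun M => ?_
  refine pl_bounded_gen ht0 ht1 (hf.min measurable_const) (hg.min measurable_const) hh ?_ ?_ ?_
  · exact ne_top_of_le_ne_top (ENNReal.natCast_ne_top N) (iSup_le fun x => min_le_right _ _)
  · exact ne_top_of_le_ne_top (ENNReal.natCast_ne_top M) (iSup_le fun x => min_le_right _ _)
  · intro x y
    refine le_trans ?_ (H x y)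
    gcongr
    · exact min_le_left _ _
    · exact min_le_left _ _

/-- Prekopa-Leindler with weights on `Fin n → ℝ`. -/
theorem pl_pi {n : ℕ} {t : ℝ} (ht0 : 0 < t) (ht1 : t < 1) {f g h : (Fin n → ℝ) → ℝ≥0∞}
    (hf : Measurable f) (hg : Measurable g) (hh : Measurable h)
    (H : ∀ x y, f x ^ (1 - t) * g y ^ t ≤ h ((1 - t) • x + t • y)) :
    (∫⁻ x, f x) ^ (1 - t) * (∫⁻ x, g x) ^ t ≤ ∫⁻ x, h x := by
  induction n with
  | zero =>
    have e : ∀ u : (Fin 0 → ℝ) → ℝ≥0∞, ∫⁻ x, u x = u 0 := by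
      intro u
      rw [Measure.volume_pi_eq_dirac (0 : Fin 0 → ℝ)]
      simp
    rw [e f, e g, e h]
    have := H 0 0
    simpa using this
  | succ n ih =>
    let e := MeasurableEquiv.piFinSuccAbove (fun _ : Fin (n + 1) => ℝ) 0
    have hmp : MeasurePreserving e.symm :=
      (volume_preserving_piFinSuccAbove (fun _ : Fin (n + 1) => ℝ) 0).symm
    have hint : ∀ u : (Fin (n + 1) → ℝ) → ℝ≥0∞, Measurable u →
        ∫⁻ x, u x = ∫⁻ s : ℝ, ∫⁻ y : Fin n → ℝ, u (e.symm (s, y)) := by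
      intro u hu
      rw [← hmp.lintegral_comp hu, Measure.volume_eq_prod]
      exact lintegral_prod (fun p => u (e.symm p)) (hu.comp e.symm.measurable).aemeasurable
    rw [hint f hf, hint g hg, hint h hh]
    have hsec : ∀ u : (Fin (n + 1) → ℝ) → ℝ≥0∞, Measurable u →
        Measurable fun s : ℝ => ∫⁻ y : Fin n → ℝ, u (e.symm (s, y)) := by
      intro u hu
      exact (hu.comp e.symm.measurable).lintegral_prod_right'
    apply pl_one_gen ht0 ht1 (hsec f hf) (hsec g hg) (hsec h hh)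
    intro s r
    apply ih
    · exact hf.comp (e.symm.measurable.comp measurable_prodMk_left)
    · exact hg.comp (e.symm.measurable.comp measurable_prodMk_left)
    · exact hh.comp (e.symm.measurable.comp measurable_prodMk_left)
    · intro y z
      have hmid : e.symm ((1 - t) * s + t * r, (1 - t) • y + t • z) =
          (1 - t) • (e.symm (s, y)) + t • (e.symm (r, z)) := by
        funext i
        refine Fin.cases ?_ (fun j => ?_) i
        · simp [e, MeasurableEquiv.piFinSuccAbove]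
        · simp [e, MeasurableEquiv.piFinSuccAbove]
      rw [hmid]
      exact H _ _

/-- Prekopa-Leindler with weights on Euclidean space. -/
theorem pl_E_gen {n : ℕ} {t : ℝ} (ht0 : 0 < t) (ht1 : t < 1) {f g h : E n → ℝ≥0∞}
    (hf : Measurable f) (hg : Measurable g) (hh : Measurable h)
    (H : ∀ x y, f x ^ (1 - t) * g y ^ t ≤ h ((1 - t) • x + t • y)) :
    (∫⁻ x, f x) ^ (1 - t) * (∫⁻ x, g x) ^ t ≤ ∫⁻ x, h x := by
  have hconv : ∀ u : E n → ℝ≥0∞, Measurable u →
      ∫⁻ x, u x = ∫⁻ x : Fin n → ℝ, u (WithLp.toLp 2 x) := by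
    intro u hu
    exact ((PiLp.volume_preserving_toLp (Fin n)).lintegral_comp hu).symm
  rw [hconv f hf, hconv g hg, hconv h hh]
  have hm : Measurable (WithLp.toLp 2 : (Fin n → ℝ) → E n) :=
    (PiLp.volume_preserving_toLp (Fin n)).measurable
  apply pl_pi ht0 ht1 (hf.comp hm) (hg.comp hm) (hh.comp hm)
  intro x y
  have := H (WithLp.toLp 2 x) (WithLp.toLp 2 y)
  simpa using this

end Vale.Agent.Lib.P245
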