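import Mathlib

/-!
# Basic tools: exponential in `ℝ≥0∞`, standard Gaussian measure on `EuclideanSpace ℝ (Fin n)`.
-/

open MeasureTheory Real Set
open scoped ENNReal RealInnerProductSpace

namespace Vale.Agent.Lib.P245

/-- Euclidean space. -/
abbrev E (n : ℕ) := EuclideanSpace ℝ (Fin n)

/-- The exponential with values in `ℝ≥0∞`. -/
noncomputable def eo (s : ℝ) : ℝ≥0∞ := ENNReal.ofReal (Real.exp s)

lemma eo_add (a b : ℝ) : eo (a + b) = eo a * eo b := by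
  unfold eo
  rw [Real.exp_add, ENNReal.ofReal_mul (Real.exp_pos _).le]

@[simp] lemma eo_zero : eo 0 = 1 := by simp [eo]

lemma eo_pos (a : ℝ) : 0 < eo a := ENNReal.ofReal_pos.2 (Real.exp_pos a)

lemma eo_ne_zero (a : ℝ) : eo a ≠ 0 := (eo_pos a).ne'

lemma eo_ne_top (a : ℝ) : eo a ≠ ⊤ := ENNReal.ofReal_ne_top

lemma eo_le {a b : ℝ} (h : a ≤ b) : eo a ≤ eo b :=
  ENNReal.ofReal_le_ofReal (Real.exp_le_exp.2 h)

lemma eo_le_iff {a b : ℝ} : eo a ≤ eo b ↔ a ≤ b := by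
  unfold eo
  rw [ENNReal.ofReal_le_ofReal_iff (Real.exp_pos b).le, Real.exp_le_exp]

lemma measurable_eo : Measurable eo :=
  ENNReal.measurable_ofReal.comp Real.measurable_exp

@[fun_prop] lemma Measurable.eo' {α : Type*} [MeasurableSpace α] {f : α → ℝ} (hf : Measurable f) :
    Measurable fun x => eo (f x) := measurable_eo.comp hf

lemma eo_pow (a : ℝ) (k : ℕ) : eo a ^ k = eo (k * a) := by
  unfold eo
  rw [← ENNReal.ofReal_pow (Real.exp_pos _).le, ← Real.exp_nat_mul]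

lemma eo_sq (a : ℝ) : eo a ^ 2 = eo (2 * a) := by
  simpa using eo_pow a 2

lemma eo_rpow (a : ℝ) {r : ℝ} (hr : 0 ≤ r) : eo a ^ r = eo (a * r) := by
  unfold eo
  rw [ENNReal.ofReal_rpow_of_nonneg (Real.exp_pos _).le hr, ← Real.exp_mul]

lemma eo_inv (a : ℝ) : (eo a)⁻¹ = eo (-a) := by
  have h : eo (-a) * eo a = 1 := by rw [← eo_add]; simp
  exact (ENNReal.eq_inv_of_mul_eq_one_left h).symm

lemma eo_mul_neg (a : ℝ) : eo a * eo (-a) = 1 := by rw [← eo_add]; simp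

/-- The density of the standard Gaussian measure. -/
noncomputable def gamDens (n : ℕ) (ξ : E n) : ℝ≥0∞ :=
  eo (-(‖ξ‖ ^ 2) / 2 - (n / 2 : ℝ) * Real.log (2 * π))

lemma measurable_gamDens (n : ℕ) : Measurable (gamDens n) := by
  unfold gamDens
  fun_prop

/-- The standard Gaussian measure on Euclidean space. -/
noncomputable def gam (n : ℕ) : Measure (E n) :=
  (volume : Measure (E n)).withDensity (gamDens n)

instance (n : ℕ) : SFinite (gam n) := by unfold gam; infer_instance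

lemma lintegral_gam (n : ℕ) (G : E n → ℝ≥0∞) (hG : Measurable G) :
    ∫⁻ ξ, G ξ ∂(gam n) = ∫⁻ ξ, gamDens n ξ * G ξ := by
  unfold gam
  exact lintegral_withDensity_eq_lintegral_mul _ (measurable_gamDens n) hG

lemma lintegral_eo_neg_sq (n : ℕ) {b : ℝ} (hb : 0 < b) :
    ∫⁻ ξ : E n, eo (-b * ‖ξ‖ ^ 2) = ENNReal.ofReal ((π / b) ^ ((n : ℝ) / 2)) := by
  have hval := GaussianFourier.integral_rexp_neg_mul_sq_norm (V := E n) hb
  have hfin : Module.finrank ℝ (E n) = n := by simp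
  rw [hfin] at hval
  have hpos : 0 < (π / b) ^ ((n : ℝ) / 2) := by positivity
  have hint : Integrable (fun ξ : E n => Real.exp (-b * ‖ξ‖ ^ 2)) := by
    by_contra hni
    rw [integral_undef hni] at hval
    exact hpos.ne hval
  rw [← hval, ofReal_integral_eq_lintegral_ofReal hint
    (Filter.Eventually.of_forall fun ξ => (Real.exp_pos _).le)]
  rfl

lemma gamDens_eq (n : ℕ) (ξ : E n) :
    gamDens n ξ = eo (-(1 / 2) * ‖ξ‖ ^ 2) * eo (-((n / 2 : ℝ) * Real.log (2 * π))) := by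
  unfold gamDens
  rw [← eo_add]
  congr 1
  ring

lemma eo_log_const (n : ℕ) :
    ENNReal.ofReal ((π / (1 / 2)) ^ ((n : ℝ) / 2)) * eo (-((n / 2 : ℝ) * Real.log (2 * π))) = 1 := by
  have hpi : 0 < 2 * π := by positivity
  have h1 : π / (1 / 2) = 2 * π := by ring
  have hpos : 0 < (2 * π) ^ ((n : ℝ) / 2) := by positivity
  rw [h1]
  unfold eo
  rw [← ENNReal.ofReal_mul hpos.le, Real.rpow_def_of_pos hpi, ← Real.exp_add]
  have : Real.log (2 * π) * ((n : ℝ) / 2) + -((n / 2 : ℝ) * Real.log (2 * π)) = 0 := by ring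
  rw [this]
  simp

instance (n : ℕ) : IsProbabilityMeasure (gam n) := by
  constructor
  have h := lintegral_gam n (fun _ => 1) measurable_const
  simp only [lintegral_const, mul_one] at h
  have h3 : (gam n) Set.univ = ∫⁻ ξ, gamDens n ξ := by simpa using h
  rw [h3]
  simp_rw [gamDens_eq]
  rw [lintegral_mul_const _ (by fun_prop), lintegral_eo_neg_sq n (by norm_num),
    eo_log_const]

/-- Cameron-Martin: shift of the Gaussian measure. -/
lemma lintegral_gam_shift (n : ℕ) (G : E n → ℝ≥0∞) (hG : Measurable G) (v : E n) :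
    ∫⁻ ξ, G ξ * eo (⟪ξ, v⟫ - ‖v‖ ^ 2 / 2) ∂(gam n) = ∫⁻ ξ, G (ξ + v) ∂(gam n) := by
  rw [lintegral_gam n (fun ξ => G ξ * eo (⟪ξ, v⟫ - ‖v‖ ^ 2 / 2)) (by fun_prop),
    lintegral_gam n (fun ξ => G (ξ + v)) (by fun_prop)]
  rw [← lintegral_add_right_eq_self (μ := (volume : Measure (E n)))
    (fun ξ => gamDens n ξ * (G ξ * eo (⟪ξ, v⟫ - ‖v‖ ^ 2 / 2))) v]
  refine lintegral_congr fun ξ => ?_
  rw [mul_comm (G (ξ + v)), ← mul_assoc]
  congr 1
  unfold gamDens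
  rw [← eo_add]
  congr 1
  have h1 : ‖ξ + v‖ ^ 2 = ‖ξ‖ ^ 2 + 2 * ⟪ξ, v⟫ + ‖v‖ ^ 2 := by
    rw [@norm_add_sq_real]
  have h2 : ⟪ξ + v, v⟫ = ⟪ξ, v⟫ + ‖v‖ ^ 2 := by
    rw [inner_add_left, real_inner_self_eq_norm_sq]
  rw [h1, h2]
  ring

lemma lintegral_gam_eo_inner (n : ℕ) (v : E n) :
    ∫⁻ ξ, eo (⟪ξ, v⟫) ∂(gam n) = eo (‖v‖ ^ 2 / 2) := by
  have h := lintegral_gam_shift n (fun _ => 1) measurable_const v
  simp only [one_mul, lintegral_one, measure_univ] at h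
  have h2 : ∀ ξ : E n, eo (⟪ξ, v⟫) = eo (⟪ξ, v⟫ - ‖v‖ ^ 2 / 2) * eo (‖v‖ ^ 2 / 2) := by
    intro ξ; rw [← eo_add]; congr 1; ring
  simp_rw [h2]
  rw [lintegral_mul_const _ (by fun_prop), h, one_mul]

/-- Exponential moments of `‖ξ‖ ^ 2`. -/
lemma lintegral_gam_eo_sq (n : ℕ) {k : ℝ} (hk0 : 0 ≤ k) (hk : k ≤ 1 / 4) :
    ∫⁻ ξ, eo (k * ‖ξ‖ ^ 2) ∂(gam n) ≤ eo (2 * k * n) := by
  rw [lintegral_gam n (fun ξ => eo (k * ‖ξ‖ ^ 2)) (by fun_prop)]
  have hb : 0 < 1 / 2 - k := by linarith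
  have h1 : ∀ ξ : E n, gamDens n ξ * eo (k * ‖ξ‖ ^ 2) =
      eo (-(1 / 2 - k) * ‖ξ‖ ^ 2) * eo (-((n / 2 : ℝ) * Real.log (2 * π))) := by
    intro ξ
    unfold gamDens
    rw [← eo_add, ← eo_add]
    congr 1
    ring
  simp_rw [h1]
  rw [lintegral_mul_const _ (by fun_prop), lintegral_eo_neg_sq n hb]
  have hpi : 0 < 2 * π := by positivity
  have hpos : 0 < π / (1 / 2 - k) := by positivity
  unfold eo
  rw [← ENNReal.ofReal_mul (by positivity)]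
  apply ENNReal.ofReal_le_ofReal
  rw [Real.rpow_def_of_pos hpos, ← Real.exp_add, Real.exp_le_exp]
  have h2 : π / (1 / 2 - k) = 2 * π * (1 - 2 * k)⁻¹ := by
    have : 1 - 2 * k ≠ 0 := by linarith
    field_simp
  have h3 : 0 < 1 - 2 * k := by linarith
  rw [h2, Real.log_mul hpi.ne' (by positivity), Real.log_inv]
  have h4 : -Real.log (1 - 2 * k) ≤ 4 * k := by
    have := Real.one_sub_inv_le_log_of_pos h3
    have h5 : (1 - 2 * k)⁻¹ ≤ 1 + 4 * k := by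
      rw [inv_le_iff_one_le_mul₀ h3]
      nlinarith
    linarith
  have hn : (0 : ℝ) ≤ n := by positivity
  nlinarith

/-- Gaussian tail. -/
lemma gam_tail (n : ℕ) (r : ℝ) :
    gam n {ξ | r ≤ ‖ξ‖ ^ 2} ≤ eo ((n : ℝ) / 2 - r / 4) := by
  have h := mul_meas_ge_le_lintegral (μ := gam n) (f := fun ξ : E n => eo ((1 / 4) * ‖ξ‖ ^ 2))
    (by fun_prop) (eo (r / 4))
  have h2 := lintegral_gam_eo_sq n (k := 1 / 4) (by norm_num) le_rfl
  have h3 : {ξ : E n | r ≤ ‖ξ‖ ^ 2} ⊆ {ξ | eo (r / 4) ≤ eo ((1 / 4) * ‖ξ‖ ^ 2)} := by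
    intro ξ hξ
    simp only [Set.mem_ofPred_eq] at hξ ⊢
    exact eo_le (by linarith)
  calc gam n {ξ | r ≤ ‖ξ‖ ^ 2}
      = eo (-(r / 4)) * (eo (r / 4) * gam n {ξ | r ≤ ‖ξ‖ ^ 2}) := by
        rw [← mul_assoc, mul_comm (eo (-(r / 4))), eo_mul_neg, one_mul]
    _ ≤ eo (-(r / 4)) * (eo (r / 4) * gam n {ξ | eo (r / 4) ≤ eo ((1 / 4) * ‖ξ‖ ^ 2)}) := by
        gcongr
    _ ≤ eo (-(r / 4)) * eo (2 * (1 / 4) * n) := by gcongr; exact h.trans h2
    _ = eo ((n : ℝ) / 2 - r / 4) := by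
        rw [← eo_add]; congr 1; ring

end Vale.Agent.Lib.P245
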