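import Mathlib

/-!
# Definitions for the statement of the P245 results.
-/

open MeasureTheory
open scoped RealInnerProductSpace

namespace Vale.Agent.Lib.P245

/-- A log-concave Lebesgue density in the sense of the problem: nonnegative, with convex positivity
set, on which `log ρ` is concave. -/
def IsLogConcaveDensity {n : ℕ} (ρ : EuclideanSpace ℝ (Fin n) → ℝ) : Prop :=
  (∀ x, 0 ≤ ρ x) ∧ Convex ℝ {x | 0 < ρ x} ∧ ConcaveOn ℝ {x | 0 < ρ x} (fun x => Real.log (ρ x))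

/-- Linear `a`-subgaussianity: `E exp(⟪X, θ⟫ ^ 2 / a ^ 2) ≤ 2` for all unit vectors `θ`. -/
def IsLinSubgaussian {n : ℕ} (μ : Measure (EuclideanSpace ℝ (Fin n))) (a : ℝ) : Prop :=
  ∀ θ : EuclideanSpace ℝ (Fin n), ‖θ‖ = 1 →
    ∫⁻ x, ENNReal.ofReal (Real.exp (⟪x, θ⟫ ^ 2 / a ^ 2)) ∂μ ≤ 2

/-- Centered: every linear functional has mean zero. -/
def IsCenteredMeasure {n : ℕ} (μ : Measure (EuclideanSpace ℝ (Fin n))) : Prop :=
  ∀ θ : EuclideanSpace ℝ (Fin n), ∫ x, ⟪x, θ⟫ ∂μ = 0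

end Vale.Agent.Lib.P245
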