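import Vale.Agent.Lib.P245.Basic

/-!
# A form of Rothaus' lemma: tightening a defective inequality.

`Ent(f²) ≤ 4 Ent((f - m)²) + 19 Var(f)`, for bounded `f` with mean `m`.
-/

open MeasureTheory Real Set Filter

namespace Vale.Agent.Lib.P245

/-- The function `w log w - w + 1`. -/
noncomputable def thet (w : ℝ) : ℝ := w * Real.log w - w + 1

lemma thet_nonneg {w : ℝ} (hw : 0 ≤ w) : 0 ≤ thet w := by
  unfold thet
  rcases hw.eq_or_lt with h | h
  · rw [← h]
    simp
  · have h1 := Real.one_sub_inv_le_log_of_pos h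
    have h2 := mul_le_mul_of_nonneg_left h1 h.le
    have h3 : w * (1 - w⁻¹) = w - 1 := by
      field_simp
    linarith

lemma thet_le_sq {w : ℝ} (hw : 0 ≤ w) : thet w ≤ (w - 1) ^ 2 := by
  unfold thet
  rcases hw.eq_or_lt with h | h
  · rw [← h]
    simp
  · have h1 := Real.log_le_sub_one_of_pos h
    have h2 := mul_le_mul_of_nonneg_left h1 h.le
    nlinarith

lemma log_four_le : Real.log 4 ≤ 7 / 5 := by
  have h : (4 : ℝ) = 2 ^ 2 := by norm_num
  rw [h, Real.log_pow]
  have := Real.log_two_lt_d9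
  push_cast
  linarith

/-- An upper bound for `thet` at points below `4 v` with `v ≥ 1`. -/
lemma thet_le_of_le_four {z v : ℝ} (hz : 0 ≤ z) (hv : 1 ≤ v) (hzv : z ≤ 4 * v) :
    thet z ≤ 4 * v * Real.log v + 6 * v + 1 := by
  have hlogv : 0 ≤ Real.log v := Real.log_nonneg hv
  have hvp : 0 < v := by linarith
  by_cases hz1 : z ≤ 1
  · unfold thet
    have h1 : z * Real.log z ≤ 0 := mul_nonpos_of_nonneg_of_nonpos hz (Real.log_nonpos hz hz1)
    have h2 : 0 ≤ 4 * v * Real.log v := by positivity
    nlinarith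
  · push Not at hz1
    have hzp : 0 < z := by linarith
    have hlogz : 0 ≤ Real.log z := Real.log_nonneg hz1.le
    have h1 : Real.log z ≤ Real.log 4 + Real.log v := by
      rw [← Real.log_mul (by norm_num) hvp.ne']
      exact Real.log_le_log hzp hzv
    have h2 : z * Real.log z ≤ 4 * v * (Real.log 4 + Real.log v) := by
      calc z * Real.log z ≤ 4 * v * Real.log z := mul_le_mul_of_nonneg_right hzv hlogz
        _ ≤ 4 * v * (Real.log 4 + Real.log v) := by
          apply mul_le_mul_of_nonneg_left h1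
          positivity
    have h3 := log_four_le
    unfold thet
    nlinarith

/-- Pointwise inequality when the mean dominates. -/
lemma thet_P1 (x : ℝ) {σ : ℝ} (hσ0 : 0 < σ) (hσ1 : σ ≤ 1) :
    thet ((1 + x) ^ 2) ≤ 4 * (σ * thet (x ^ 2 / σ)) + 12 * x ^ 2 := by
  have hth : 0 ≤ σ * thet (x ^ 2 / σ) := mul_nonneg hσ0.le (thet_nonneg (by positivity))
  by_cases hx : |x| ≤ 1
  · have h1 := thet_le_sq (sq_nonneg (1 + x))
    have h2 : ((1 + x) ^ 2 - 1) ^ 2 = x ^ 2 * (2 + x) ^ 2 := by ring
    have h3 := abs_le.1 hx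
    have h4 : (2 + x) ^ 2 ≤ 9 := by nlinarith
    have h5 : x ^ 2 * (2 + x) ^ 2 ≤ x ^ 2 * 9 := mul_le_mul_of_nonneg_left h4 (sq_nonneg x)
    nlinarith
  · push Not at hx
    have hx2 : 1 < x ^ 2 := by
      rw [← sq_abs]
      nlinarith
    have hx20 : 0 < x ^ 2 := by linarith
    have hz : (1 + x) ^ 2 ≤ 4 * x ^ 2 := by
      have : |(1 + x)| ≤ 2 * |x| := by
        calc |1 + x| ≤ |1| + |x| := abs_add_le _ _
          _ = 1 + |x| := by simp
          _ ≤ 2 * |x| := by linarith
      calc (1 + x) ^ 2 = |1 + x| ^ 2 := (sq_abs _).symm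
        _ ≤ (2 * |x|) ^ 2 := by gcongr
        _ = 4 * x ^ 2 := by rw [mul_pow, sq_abs]; norm_num
    have h1 := thet_le_of_le_four (sq_nonneg (1 + x)) hx2.le hz
    have hlogσ : Real.log σ ≤ 0 := Real.log_nonpos hσ0.le hσ1
    have h2 : σ * thet (x ^ 2 / σ) = x ^ 2 * (Real.log (x ^ 2) - Real.log σ) - x ^ 2 + σ := by
      unfold thet
      rw [Real.log_div hx20.ne' hσ0.ne']
      field_simp
    have h3 : x ^ 2 * Real.log (x ^ 2) ≤ σ * thet (x ^ 2 / σ) + x ^ 2 := by
      rw [h2]
      have : 0 ≤ x ^ 2 * (-Real.log σ) := mul_nonneg hx20.le (by linarith)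
      nlinarith
    nlinarith

/-- Pointwise inequality when the variance dominates. -/
lemma thet_P2 (p y : ℝ) (hp : p ^ 2 ≤ 1) :
    thet ((p + y) ^ 2) ≤ 4 * thet (y ^ 2) + 10 * y ^ 2 + 9 := by
  have hz : (p + y) ^ 2 ≤ 2 + 2 * y ^ 2 := by
    nlinarith [sq_nonneg (p - y)]
  have hth := thet_nonneg (sq_nonneg y)
  by_cases hy : y ^ 2 ≤ 1
  · have h1 := thet_le_sq (sq_nonneg (p + y))
    have h2 : ((p + y) ^ 2 - 1) ^ 2 ≤ 9 := by
      have h3 : (p + y) ^ 2 ≤ 4 := by linarith
      have h4 := sq_nonneg (p + y)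
      nlinarith
    nlinarith [sq_nonneg y]
  · push Not at hy
    have h1 := thet_le_of_le_four (sq_nonneg (p + y)) hy.le (by linarith)
    unfold thet at h1 ⊢
    nlinarith

/-- The entropy functional. -/
noncomputable def entR {α : Type*} [MeasurableSpace α] (μ : Measure α) (G : α → ℝ) : ℝ :=
  ∫ x, G x * Real.log (G x) ∂μ - (∫ x, G x ∂μ) * Real.log (∫ x, G x ∂μ)

variable {α : Type*} [MeasurableSpace α] {μ : Measure α} [IsProbabilityMeasure μ]

lemma integrable_of_bdd {φ : α → ℝ} (hφ : Measurable φ) {C : ℝ} (hC : ∀ x, |φ x| ≤ C) :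
    Integrable φ μ :=
  Integrable.of_bound hφ.aestronglyMeasurable C (Eventually.of_forall fun x => by
    rw [Real.norm_eq_abs]
    exact hC x)

/-- `|w log w| ≤ 1 + w²` for `w ≥ 0`. -/
lemma abs_mul_log_le {w : ℝ} (hw : 0 ≤ w) : |w * Real.log w| ≤ 1 + w ^ 2 := by
  rcases hw.eq_or_lt with h | h
  · rw [← h]
    simp
  have h1 := Real.log_le_sub_one_of_pos h
  have h2 := Real.one_sub_inv_le_log_of_pos h
  have h3 := mul_le_mul_of_nonneg_left h1 h.le
  have h4 := mul_le_mul_of_nonneg_left h2 h.le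
  have h5 : w * (1 - w⁻¹) = w - 1 := by
    field_simp
  rw [abs_le]
  constructor <;> nlinarith [sq_nonneg (w - 1)]

/-- Integral formula for the scaled `thet`. -/
lemma integral_thet {G : α → ℝ} (hGm : Measurable G) (hG0 : ∀ x, 0 ≤ G x) {B : ℝ}
    (hGb : ∀ x, G x ≤ B) {b : ℝ} (hb : 0 < b) :
    b * ∫ x, thet (G x / b) ∂μ =
      ∫ x, G x * Real.log (G x) ∂μ - (∫ x, G x ∂μ) * Real.log b - ∫ x, G x ∂μ + b := by
  have hB0 : 0 ≤ B := (hG0 (nonempty_of_isProbabilityMeasure μ).some).trans (hGb _)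
  have hGabs : ∀ x, |G x| ≤ B := fun x => by
    rw [abs_of_nonneg (hG0 x)]
    exact hGb x
  have hiG : Integrable G μ := integrable_of_bdd hGm hGabs
  have hiGl : Integrable (fun x => G x * Real.log (G x)) μ :=
    integrable_of_bdd (hGm.mul hGm.log) (C := 1 + B ^ 2) fun x => by
      refine (abs_mul_log_le (hG0 x)).trans ?_
      have := hGabs x
      have h2 : G x ^ 2 ≤ B ^ 2 := by
        rw [← sq_abs (G x)]
        gcongr
      linarith
  have hpt : ∀ x, b * thet (G x / b) = G x * Real.log (G x) - G x * Real.log b - G x + b := by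
    intro x
    unfold thet
    rcases (hG0 x).eq_or_lt with h | h
    · rw [← h]
      simp
    · rw [Real.log_div h.ne' hb.ne']
      field_simp
  have hiL : Integrable (fun x => G x * Real.log b) μ := hiG.mul_const _
  have hi1 : Integrable (fun x => G x * Real.log (G x) - G x * Real.log b) μ := hiGl.sub hiL
  have hi2 : Integrable (fun x => G x * Real.log (G x) - G x * Real.log b - G x) μ := hi1.sub hiG
  rw [← integral_const_mul]
  simp_rw [hpt]
  rw [integral_add hi2 (integrable_const _), integral_sub hi1 hiG, integral_sub hiGl hiL,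
    integral_mul_const]
  simp

lemma integrable_thet {G : α → ℝ} (hGm : Measurable G) (hG0 : ∀ x, 0 ≤ G x) {B : ℝ}
    (hGb : ∀ x, G x ≤ B) {b : ℝ} (hb : 0 < b) : Integrable (fun x => thet (G x / b)) μ := by
  have hB0 : 0 ≤ B := (hG0 (nonempty_of_isProbabilityMeasure μ).some).trans (hGb _)
  have hmeas : Measurable fun x => thet (G x / b) := by
    unfold thet
    have h1 : Measurable fun x => G x / b := hGm.div_const b
    exact ((h1.mul h1.log).sub h1).add_const 1
  refine integrable_of_bdd hmeas (C := ((B / b) - 1) ^ 2 + 1 + (B / b) ^ 2 * 2 + 1) fun x => ?_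
  have h0 : 0 ≤ G x / b := div_nonneg (hG0 x) hb.le
  have h1 : G x / b ≤ B / b := div_le_div_of_nonneg_right (hGb x) hb.le
  rw [abs_of_nonneg (thet_nonneg h0)]
  refine (thet_le_sq h0).trans ?_
  have h2 : (G x / b - 1) ^ 2 ≤ (B / b) ^ 2 + 1 := by
    have : (G x / b) ^ 2 ≤ (B / b) ^ 2 := by gcongr
    nlinarith
  nlinarith [sq_nonneg (B / b - 1), sq_nonneg (B / b)]

/-- Entropy is bounded by the scaled `thet` integral. -/
lemma entR_le {G : α → ℝ} (hGm : Measurable G) (hG0 : ∀ x, 0 ≤ G x) {B : ℝ}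
    (hGb : ∀ x, G x ≤ B) {b : ℝ} (hb : 0 < b) :
    entR μ G ≤ b * ∫ x, thet (G x / b) ∂μ := by
  rw [integral_thet hGm hG0 hGb hb]
  unfold entR
  set e := ∫ x, G x ∂μ with he
  have he0 : 0 ≤ e := integral_nonneg hG0
  have h1 := thet_nonneg (div_nonneg he0 hb.le)
  have h2 : 0 ≤ b * thet (e / b) := mul_nonneg hb.le h1
  have h3 : b * thet (e / b) = e * Real.log e - e * Real.log b - e + b := by
    unfold thet
    rcases he0.eq_or_lt with h | h
    · rw [← h]
      simp
    · rw [Real.log_div h.ne' hb.ne']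
      field_simp
  rw [h3] at h2
  linarith

/-- Equality at the mean. -/
lemma entR_eq {G : α → ℝ} (hGm : Measurable G) (hG0 : ∀ x, 0 ≤ G x) {B : ℝ}
    (hGb : ∀ x, G x ≤ B) (hs : 0 < ∫ x, G x ∂μ) :
    entR μ G = (∫ x, G x ∂μ) * ∫ x, thet (G x / ∫ x, G x ∂μ) ∂μ := by
  rw [integral_thet hGm hG0 hGb hs]
  unfold entR
  ring

/-- A form of Rothaus' lemma. -/
theorem rothaus {f : α → ℝ} (hfm : Measurable f) {B : ℝ} (hfb : ∀ x, |f x| ≤ B) :
    entR μ (fun x => f x ^ 2) ≤
      4 * entR μ (fun x => (f x - ∫ y, f y ∂μ) ^ 2) + 19 * ∫ x, (f x - ∫ y, f y ∂μ) ^ 2 ∂μ := by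
  set m := ∫ y, f y ∂μ with hm
  set g : α → ℝ := fun x => f x - m with hg
  have hgm : Measurable g := hfm.sub_const m
  have hB0 : 0 ≤ B := (abs_nonneg _).trans (hfb (nonempty_of_isProbabilityMeasure μ).some)
  have hif : Integrable f μ := integrable_of_bdd hfm hfb
  have hmB : |m| ≤ B := by
    have h1 := norm_integral_le_of_norm_le_const (μ := μ) (f := f) (C := B)
      (Eventually.of_forall fun x => by
        rw [Real.norm_eq_abs]
        exact hfb x)
    simpa using h1
  have hgabs : ∀ x, |g x| ≤ 2 * B := fun x => by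
    calc |f x - m| ≤ |f x| + |m| := abs_sub _ _
      _ ≤ 2 * B := by have := hfb x; linarith
  -- the squares
  set G1 : α → ℝ := fun x => f x ^ 2 with hG1
  set G2 : α → ℝ := fun x => g x ^ 2 with hG2
  have hG1m : Measurable G1 := hfm.pow_const 2
  have hG2m : Measurable G2 := hgm.pow_const 2
  have hG10 : ∀ x, 0 ≤ G1 x := fun x => sq_nonneg _
  have hG20 : ∀ x, 0 ≤ G2 x := fun x => sq_nonneg _
  have hG1b : ∀ x, G1 x ≤ B ^ 2 := fun x => by
    simp only [hG1]
    rw [← sq_abs]
    have := hfb x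
    gcongr
  have hG2b : ∀ x, G2 x ≤ (2 * B) ^ 2 := fun x => by
    simp only [hG2]
    rw [← sq_abs]
    have := hgabs x
    gcongr
  set s := ∫ x, G2 x ∂μ with hs
  have hs0 : 0 ≤ s := integral_nonneg hG20
  have hiG2 : Integrable G2 μ := integrable_of_bdd hG2m (C := (2 * B) ^ 2) fun x => by
    rw [abs_of_nonneg (hG20 x)]
    exact hG2b x
  rcases hs0.eq_or_lt with hs1 | hs1
  · -- zero variance
    have hae : G2 =ᵐ[μ] 0 := (integral_eq_zero_iff_of_nonneg hG20 hiG2).1 hs1.symm
    have hae1 : ∀ᵐ x ∂μ, f x = m := by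
      filter_upwards [hae] with x hx
      have h2 : (f x - m) ^ 2 = 0 := hx
      have h3 := pow_eq_zero_iff (two_ne_zero) |>.1 h2
      linarith
    have e1 : ∫ x, G1 x ∂μ = m ^ 2 := by
      rw [integral_congr_ae (g := fun _ => m ^ 2) (hae1.mono fun x hx => by simp [hG1, hx])]
      simp
    have e2 : ∫ x, G1 x * Real.log (G1 x) ∂μ = m ^ 2 * Real.log (m ^ 2) := by
      rw [integral_congr_ae (g := fun _ => m ^ 2 * Real.log (m ^ 2))
        (hae1.mono fun x hx => by simp [hG1, hx])]
      simp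
    have e3 : entR μ G1 = 0 := by
      unfold entR
      rw [e1, e2]
      ring
    have e4 : ∫ x, G2 x * Real.log (G2 x) ∂μ = 0 := by
      rw [integral_congr_ae (g := fun _ => 0) (hae.mono fun x hx => by simp [hx])]
      simp
    have e5 : entR μ G2 = 0 := by
      unfold entR
      rw [e4, ← hs, ← hs1]
      simp
    rw [e3, e5, ← hs1]
    simp
  · -- positive variance
    have hE2 : entR μ G2 = s * ∫ x, thet (G2 x / s) ∂μ := entR_eq (μ := μ) hG2m hG20 hG2b hs1
    have hI2 : Integrable (fun x => thet (G2 x / s)) μ :=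
      integrable_thet (μ := μ) hG2m hG20 hG2b hs1
    have hi2 : ∫ x, G2 x / s ∂μ = 1 := by
      rw [integral_div, ← hs]
      field_simp
    have hiG2s : Integrable (fun x => G2 x / s) μ := hiG2.div_const s
    by_cases hcase : s ≤ m ^ 2
    · -- the mean dominates
      have hm2 : 0 < m ^ 2 := lt_of_lt_of_le hs1 hcase
      have hm0 : m ≠ 0 := fun h => by
        rw [h] at hm2
        simp at hm2
      have h1 := entR_le (μ := μ) hG1m hG10 hG1b hm2
      set σ := s / m ^ 2 with hσ
      have hσ0 : 0 < σ := div_pos hs1 hm2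
      have hσ1 : σ ≤ 1 := (div_le_one hm2).2 hcase
      have hpt : ∀ x, m ^ 2 * thet (G1 x / m ^ 2) ≤ 4 * (s * thet (G2 x / s)) + 12 * G2 x := by
        intro x
        have h2 := thet_P1 (g x / m) hσ0 hσ1
        have e1 : (1 + g x / m) ^ 2 = G1 x / m ^ 2 := by
          simp only [hG1, hg]
          field_simp
          ring
        have e2 : (g x / m) ^ 2 / σ = G2 x / s := by
          simp only [hG2, hσ]
          field_simp
        rw [e1, e2] at h2
        have h3 := mul_le_mul_of_nonneg_left h2 hm2.le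
        have e3 : m ^ 2 * (4 * (σ * thet (G2 x / s)) + 12 * (g x / m) ^ 2) =
            4 * (s * thet (G2 x / s)) + 12 * G2 x := by
          simp only [hG2, hσ]
          field_simp
        rwa [e3] at h3
      have hiL : Integrable (fun x => m ^ 2 * thet (G1 x / m ^ 2)) μ :=
        (integrable_thet hG1m hG10 hG1b hm2).const_mul _
      have hiA : Integrable (fun x => 4 * (s * thet (G2 x / s))) μ := (hI2.const_mul s).const_mul 4
      have hiB : Integrable (fun x => 12 * G2 x) μ := hiG2.const_mul 12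
      have hiR : Integrable (fun x => 4 * (s * thet (G2 x / s)) + 12 * G2 x) μ := hiA.add hiB
      have hm1 := integral_mono hiL hiR hpt
      have e6 : ∫ x, ((4 * (s * thet (G2 x / s))) + 12 * G2 x) ∂μ =
          4 * (s * ∫ x, thet (G2 x / s) ∂μ) + 12 * s := by
        rw [integral_add hiA hiB, integral_const_mul, integral_const_mul, integral_const_mul]
      rw [e6, integral_const_mul] at hm1
      have h7 : entR μ G1 ≤ 4 * entR μ G2 + 12 * s := by
        rw [hE2]
        exact h1.trans hm1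
      linarith
    · -- the variance dominates
      push Not at hcase
      have h1 := entR_le (μ := μ) hG1m hG10 hG1b hs1
      set q := Real.sqrt s with hq
      have hq0 : 0 < q := Real.sqrt_pos.2 hs1
      have hq2 : q ^ 2 = s := Real.sq_sqrt hs1.le
      have hp : (m / q) ^ 2 ≤ 1 := by
        rw [div_pow, hq2, div_le_one hs1]
        exact hcase.le
      have hpt : ∀ x, s * thet (G1 x / s) ≤ 4 * (s * thet (G2 x / s)) + 10 * G2 x + 9 * s := by
        intro x
        have h2 := thet_P2 (m / q) (g x / q) hp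
        have e1 : (m / q + g x / q) ^ 2 = G1 x / s := by
          simp only [hG1, hg]
          rw [← hq2]
          field_simp
          ring
        have e2 : (g x / q) ^ 2 = G2 x / s := by
          simp only [hG2]
          rw [← hq2]
          field_simp
        rw [e1, e2] at h2
        have h3 := mul_le_mul_of_nonneg_left h2 hs1.le
        have e3 : s * (4 * thet (G2 x / s) + 10 * (G2 x / s) + 9) =
            4 * (s * thet (G2 x / s)) + 10 * G2 x + 9 * s := by
          field_simp
        rwa [e3] at h3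
      have hiL : Integrable (fun x => s * thet (G1 x / s)) μ :=
        (integrable_thet hG1m hG10 hG1b hs1).const_mul _
      have hiA : Integrable (fun x => 4 * (s * thet (G2 x / s))) μ := (hI2.const_mul s).const_mul 4
      have hiB : Integrable (fun x => 10 * G2 x) μ := hiG2.const_mul 10
      have hiAB : Integrable (fun x => 4 * (s * thet (G2 x / s)) + 10 * G2 x) μ := hiA.add hiB
      have hiR : Integrable (fun x => 4 * (s * thet (G2 x / s)) + 10 * G2 x + 9 * s) μ :=
        hiAB.add (integrable_const _)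
      have hm1 := integral_mono hiL hiR hpt
      have e6 : ∫ x, (4 * (s * thet (G2 x / s)) + 10 * G2 x + 9 * s) ∂μ =
          4 * (s * ∫ x, thet (G2 x / s) ∂μ) + 10 * s + 9 * s := by
        rw [integral_add hiAB (integrable_const _), integral_add hiA hiB, integral_const_mul,
          integral_const_mul, integral_const_mul, ← hs]
        simp
      rw [e6, integral_const_mul] at hm1
      have h7 : entR μ G1 ≤ 4 * entR μ G2 + 19 * s := by
        rw [hE2]
        linarith
      exact h7

end Vale.Agent.Lib.P245
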